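import Vale.Agent.P183.H287.Top

/-!
A subgroup containing the stabiliser and an element with zero corner contains the transposition.
-/

set_option autoImplicit false

namespace Vale.Agent.P183.H55

open Matrix Vale.Agent.P183.H552 Vale.Agent.P183.H287

theorem tt_of_zero (K : Subgroup U) (hK : QQ ≤ K) (g : U) (hg : g ∈ K) (h0 : g.m 0 0 = 0) :
    tt ∈ K := by
  have e : N (g.m 1 0) + N (g.m 2 0) = 1 := by
    have e := congrFun (congrFun g.h' 0) 0
    simp only [Matrix.mul_apply, Fin.sum_univ_three, st_apply, Matrix.one_apply_eq, h0, map_zero,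
      zero_mul, zero_add] at e
    unfold N
    rw [← e]; ring
  have hxy : N (F16.cj (g.m 1 0)) + N (F16.cj (g.m 2 0)) = 1 := by rw [N_cj, N_cj]; exact e
  have hg1 : su _ _ hxy * g ∈ K := K.mul_mem (hK (su_mem hxy)) hg
  have k0 : (su _ _ hxy * g).m 0 0 = 0 := by
    simp [su, Matrix.mul_apply, Fin.sum_univ_three, h0]
  have k2 : (su _ _ hxy * g).m 2 0 = 0 := by
    simp [su, Matrix.mul_apply, Fin.sum_univ_three, h0, two_eq]
  have hq : tt⁻¹ * (su _ _ hxy * g) ∈ QQ := by
    apply QQ_of_col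
    · have : (tt⁻¹ * (su _ _ hxy * g)).m 1 0 = (su _ _ hxy * g).m 0 0 := by
        rw [U.mul_m, Matrix.mul_apply, Fin.sum_univ_three]
        simp [tt]
      rw [this, k0]
    · have : (tt⁻¹ * (su _ _ hxy * g)).m 2 0 = (su _ _ hxy * g).m 2 0 := by
        rw [U.mul_m, Matrix.mul_apply, Fin.sum_univ_three]
        simp [tt]
      rw [this, k2]
  have h1 : tt = su _ _ hxy * g * (tt⁻¹ * (su _ _ hxy * g))⁻¹ := by group
  rw [h1]
  exact K.mul_mem hg1 (K.inv_mem (hK hq))

end Vale.Agent.P183.H55
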